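import Mathlib
import Vale.Agent.Lib.P037.Round
import Vale.Agent.Lib.P037.Key

namespace Vale.Agent.Lib.P037

open Finset

variable {n : ℕ}

def Npair (A : Fin n → Fin n → Bool) (ρ ρ' : Fin n) : ℕ :=
  ∑ a, ∑ b, if cp A ρ ρ' a b then 1 else 0

def Nbot (A : Fin n → Fin n → Bool) (ρ : Fin n) : ℕ :=
  ∑ r, ∑ a, ∑ b, if cp A r ρ a b then 1 else 0

def N2 (A : Fin n → Fin n → Bool) : ℕ :=
  ∑ r, ∑ r', ∑ a, ∑ b, if cp A r r' a b then 1 else 0

theorem N2_eq_sum_Nbot (A : Fin n → Fin n → Bool) : N2 A = ∑ ρ, Nbot A ρ := by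
  unfold N2 Nbot
  rw [Finset.sum_comm]

theorem N2_eq_sum_Npair (A : Fin n → Fin n → Bool) : N2 A = ∑ r, ∑ r', Npair A r r' := rfl

theorem Npair_self (A : Fin n → Fin n → Bool) (ρ : Fin n) : Npair A ρ ρ = 0 := by
  unfold Npair
  apply Finset.sum_eq_zero
  intro a _
  apply Finset.sum_eq_zero
  intro b _
  rw [if_neg]
  intro h
  exact lt_irrefl _ h.1

def viol (A : Fin n → Fin n → Bool) (Q : Finset (Fin n)) (r : Fin n) : ℕ :=
  ∑ x, ∑ y, if (rk A Q r x < rk A Q r y ∧ A r x = true ∧ A r y = false) then 1 else 0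

def X1 (A : Fin n → Fin n → Bool) (Q : Finset (Fin n)) : ℕ := ∑ ρ ∈ Q, Nbot A ρ

def X2 (A : Fin n → Fin n → Bool) (Q : Finset (Fin n)) : ℕ :=
  ∑ ρ0 ∈ Q, ∑ ρ1 ∈ Q, Npair A ρ0 ρ1

def X3 (A : Fin n → Fin n → Bool) (Q : Finset (Fin n)) : ℕ :=
  ∑ r, ∑ x, ∑ y,
    if (y < x ∧ A r y = false ∧ A r x = true ∧
        ∀ ρ ∈ Q, r ≤ ρ → ¬ (A ρ y = false ∧ A ρ x = true)) then 1 else 0

theorem viol_sum_le (A : Fin n → Fin n → Bool) (Q : Finset (Fin n)) :
    ∑ r, viol A Q r ≤ X1 A Q + X3 A Q + n * X2 A Q := by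
  have hpt : ∀ r x y : Fin n,
      (if (rk A Q r x < rk A Q r y ∧ A r x = true ∧ A r y = false) then 1 else 0) ≤
        (∑ ρ ∈ Q, if cp A r ρ x y then 1 else 0) +
        (if (y < x ∧ A r y = false ∧ A r x = true ∧
            ∀ ρ ∈ Q, r ≤ ρ → ¬ (A ρ y = false ∧ A ρ x = true)) then 1 else 0) +
        (∑ ρ0 ∈ Q, ∑ ρ1 ∈ Q, if cp A ρ0 ρ1 y x then 1 else 0) := by
    intro r x y
    by_cases h : (rk A Q r x < rk A Q r y ∧ A r x = true ∧ A r y = false)
    · rw [if_pos h]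
      rcases viol_cases A Q r x y h.1 h.2.1 h.2.2 with h1 | h2 | h3
      · obtain ⟨_, ρ, hρ, hcp⟩ := h1
        have h5 : (if cp A r ρ x y then 1 else 0) ≤ ∑ ρ ∈ Q, if cp A r ρ x y then 1 else 0 :=
          Finset.single_le_sum (f := fun ρ => if cp A r ρ x y then 1 else 0)
            (fun _ _ => Nat.zero_le _) hρ
        rw [if_pos hcp] at h5
        omega
      · rw [if_pos ⟨h2.1, h.2.2, h.2.1, h2.2⟩]
        omega
      · obtain ⟨ρ0, h0, ρ1, h1, hcp⟩ := h3
        have h5 : (if cp A ρ0 ρ1 y x then 1 else 0) ≤ ∑ ρ1 ∈ Q, if cp A ρ0 ρ1 y x then 1 else 0 :=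
          Finset.single_le_sum (f := fun ρ1 => if cp A ρ0 ρ1 y x then 1 else 0)
            (fun _ _ => Nat.zero_le _) h1
        have h6 : (∑ ρ1 ∈ Q, if cp A ρ0 ρ1 y x then 1 else 0) ≤
            ∑ ρ0 ∈ Q, ∑ ρ1 ∈ Q, if cp A ρ0 ρ1 y x then 1 else 0 :=
          Finset.single_le_sum (f := fun ρ0 => ∑ ρ1 ∈ Q, if cp A ρ0 ρ1 y x then 1 else 0)
            (fun _ _ => Nat.zero_le _) h0
        rw [if_pos hcp] at h5
        omega
    · rw [if_neg h]
      exact Nat.zero_le _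
  have hsum : ∑ r, viol A Q r ≤
      ∑ r : Fin n, ∑ x : Fin n, ∑ y : Fin n,
        ((∑ ρ ∈ Q, if cp A r ρ x y then 1 else 0) +
        (if (y < x ∧ A r y = false ∧ A r x = true ∧
            ∀ ρ ∈ Q, r ≤ ρ → ¬ (A ρ y = false ∧ A ρ x = true)) then 1 else 0) +
        (∑ ρ0 ∈ Q, ∑ ρ1 ∈ Q, if cp A ρ0 ρ1 y x then 1 else 0)) := by
    unfold viol
    exact Finset.sum_le_sum (fun r _ => Finset.sum_le_sum (fun x _ =>
      Finset.sum_le_sum (fun y _ => hpt r x y)))
  refine le_trans hsum ?_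
  simp only [Finset.sum_add_distrib]
  have e1 : ∑ r : Fin n, ∑ x : Fin n, ∑ y : Fin n, ∑ ρ ∈ Q, (if cp A r ρ x y then 1 else 0)
      = X1 A Q := by
    unfold X1 Nbot
    calc ∑ r : Fin n, ∑ x : Fin n, ∑ y : Fin n, ∑ ρ ∈ Q, (if cp A r ρ x y then 1 else 0)
        = ∑ r : Fin n, ∑ x : Fin n, ∑ ρ ∈ Q, ∑ y : Fin n, (if cp A r ρ x y then 1 else 0) :=
          Finset.sum_congr rfl (fun r _ => Finset.sum_congr rfl (fun x _ => Finset.sum_comm))
      _ = ∑ r : Fin n, ∑ ρ ∈ Q, ∑ x : Fin n, ∑ y : Fin n, (if cp A r ρ x y then 1 else 0) :=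
          Finset.sum_congr rfl (fun r _ => Finset.sum_comm)
      _ = ∑ ρ ∈ Q, ∑ r : Fin n, ∑ x : Fin n, ∑ y : Fin n, (if cp A r ρ x y then 1 else 0) :=
          Finset.sum_comm
  have e3 : ∑ r : Fin n, ∑ x : Fin n, ∑ y : Fin n, ∑ ρ0 ∈ Q, ∑ ρ1 ∈ Q,
      (if cp A ρ0 ρ1 y x then 1 else 0) = n * X2 A Q := by
    have inner : ∑ x : Fin n, ∑ y : Fin n, ∑ ρ0 ∈ Q, ∑ ρ1 ∈ Q,
        (if cp A ρ0 ρ1 y x then 1 else 0) = X2 A Q := by
      unfold X2 Npair
      calc ∑ x : Fin n, ∑ y : Fin n, ∑ ρ0 ∈ Q, ∑ ρ1 ∈ Q, (if cp A ρ0 ρ1 y x then 1 else 0)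
          = ∑ y : Fin n, ∑ x : Fin n, ∑ ρ0 ∈ Q, ∑ ρ1 ∈ Q, (if cp A ρ0 ρ1 y x then 1 else 0) :=
            Finset.sum_comm
        _ = ∑ y : Fin n, ∑ ρ0 ∈ Q, ∑ x : Fin n, ∑ ρ1 ∈ Q, (if cp A ρ0 ρ1 y x then 1 else 0) :=
            Finset.sum_congr rfl (fun y _ => Finset.sum_comm)
        _ = ∑ ρ0 ∈ Q, ∑ y : Fin n, ∑ x : Fin n, ∑ ρ1 ∈ Q, (if cp A ρ0 ρ1 y x then 1 else 0) :=
            Finset.sum_comm
        _ = ∑ ρ0 ∈ Q, ∑ y : Fin n, ∑ ρ1 ∈ Q, ∑ x : Fin n, (if cp A ρ0 ρ1 y x then 1 else 0) :=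
            Finset.sum_congr rfl (fun ρ0 _ => Finset.sum_congr rfl (fun y _ => Finset.sum_comm))
        _ = ∑ ρ0 ∈ Q, ∑ ρ1 ∈ Q, ∑ y : Fin n, ∑ x : Fin n, (if cp A ρ0 ρ1 y x then 1 else 0) :=
            Finset.sum_congr rfl (fun ρ0 _ => Finset.sum_comm)
    rw [inner]
    simp
  rw [e1, e3]
  exact le_refl _

theorem row_round (A : Fin n → Fin n → Bool) (Q : Finset (Fin n)) (r : Fin n) :
    ∃ τ : ℕ, ((univ.filter (fun c => A r c ≠ decide (τ ≤ rk A Q r c))).card) ^ 2 ≤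
      8 * (viol A Q r + 1) := by
  obtain ⟨τ, hτ⟩ := round_exists (rk A Q r) (rk_injective A Q r)
    (univ.filter (fun c => A r c = true)) (univ.filter (fun c => A r c = false))
  refine ⟨τ, ?_⟩
  have h1 : (univ.filter (fun c => A r c ≠ decide (τ ≤ rk A Q r c))).card ≤
      ((univ.filter (fun c => A r c = true)).filter (fun a => rk A Q r a < τ)).card +
      ((univ.filter (fun c => A r c = false)).filter (fun b => τ ≤ rk A Q r b)).card := by
    refine le_trans (card_le_card ?_) (card_union_le _ _)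
    intro c hc
    simp only [mem_filter, mem_univ, true_and, mem_union] at hc ⊢
    cases hA : A r c with
    | true =>
      left
      refine ⟨rfl, ?_⟩
      by_contra hlt
      apply hc
      rw [hA]
      simp only [not_lt] at hlt
      simp [hlt]
    | false =>
      right
      refine ⟨rfl, ?_⟩
      by_contra hle
      apply hc
      rw [hA]
      simp [hle]
  have h2 : (((univ.filter (fun c => A r c = true)) ×ˢ (univ.filter (fun c => A r c = false))).filter
      (fun p => rk A Q r p.1 < rk A Q r p.2)).card = viol A Q r := by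
    unfold viol
    rw [Finset.card_filter, Finset.sum_product, Finset.sum_filter]
    apply Finset.sum_congr rfl
    intro x _
    by_cases hx : A r x = true
    · rw [if_pos hx, Finset.sum_filter]
      apply Finset.sum_congr rfl
      intro y _
      by_cases hy : A r y = false <;> by_cases hk : rk A Q r x < rk A Q r y <;> simp [hx, hy, hk]
    · rw [if_neg hx]
      symm
      apply Finset.sum_eq_zero
      intro y _
      simp [hx]
  rw [h2] at hτ
  exact le_trans (Nat.pow_le_pow_left h1 2) hτ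

theorem exists_cover (A : Fin n → Fin n → Bool) (Q : Finset (Fin n)) :
    ∃ D : Finset (Fin n),
      (∀ ρ0 ∈ Q, ∀ ρ1 ∈ Q, ∀ a b, cp A ρ0 ρ1 a b → a ∈ D ∨ b ∈ D) ∧
      D.card ^ 2 ≤ 8 * Q.card ^ 2 * (X2 A Q + Q.card ^ 2) := by
  classical
  have hpair : ∀ p : Fin n × Fin n, ∃ Dp : Finset (Fin n),
      (∀ a b, cp A p.1 p.2 a b → a ∈ Dp ∨ b ∈ Dp) ∧
      Dp.card ^ 2 ≤ 8 * (Npair A p.1 p.2 + 1) := by
    intro p
    by_cases hlt : p.1 < p.2
    · obtain ⟨τ, hτ⟩ := round_exists (fun c : Fin n => c.val) Fin.val_injective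
        (univ.filter (fun a : Fin n => A p.1 a = true ∧ A p.2 a = false))
        (univ.filter (fun b : Fin n => A p.1 b = false ∧ A p.2 b = true))
      refine ⟨(univ.filter (fun a : Fin n => A p.1 a = true ∧ A p.2 a = false)).filter
          (fun a => a.val < τ) ∪
        (univ.filter (fun b : Fin n => A p.1 b = false ∧ A p.2 b = true)).filter
          (fun b => τ ≤ b.val), ?_, ?_⟩
      · intro a b hcp
        obtain ⟨_, hab, h1, h2, h3, h4⟩ := hcp
        by_cases ha : a.val < τ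
        · left
          simp only [mem_union, mem_filter, mem_univ, true_and]
          exact Or.inl ⟨⟨h1, h3⟩, ha⟩
        · right
          have hab' : a.val < b.val := hab
          simp only [mem_union, mem_filter, mem_univ, true_and]
          exact Or.inr ⟨⟨h2, h4⟩, by omega⟩
      · have hv : (((univ.filter (fun a : Fin n => A p.1 a = true ∧ A p.2 a = false)) ×ˢ
            (univ.filter (fun b : Fin n => A p.1 b = false ∧ A p.2 b = true))).filter
            (fun q : Fin n × Fin n => q.1.val < q.2.val)).card = Npair A p.1 p.2 := by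
          unfold Npair
          rw [Finset.card_filter, Finset.sum_product, Finset.sum_filter]
          apply Finset.sum_congr rfl
          intro a _
          by_cases ha : (A p.1 a = true ∧ A p.2 a = false)
          · rw [if_pos ha, Finset.sum_filter]
            apply Finset.sum_congr rfl
            intro b _
            by_cases hb : (A p.1 b = false ∧ A p.2 b = true)
            · by_cases hab : a.val < b.val
              · rw [if_pos hb, if_pos hab, if_pos]
                exact ⟨hlt, hab, ha.1, hb.1, ha.2, hb.2⟩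
              · rw [if_pos hb, if_neg hab, if_neg]
                intro hcp
                exact hab hcp.2.1
            · rw [if_neg hb, if_neg]
              intro hcp
              exact hb ⟨hcp.2.2.2.1, hcp.2.2.2.2.2⟩
          · rw [if_neg ha]
            symm
            apply Finset.sum_eq_zero
            intro b _
            rw [if_neg]
            intro hcp
            exact ha ⟨hcp.2.2.1, hcp.2.2.2.2.1⟩
        rw [hv] at hτ
        exact le_trans (Nat.pow_le_pow_left (card_union_le _ _) 2) hτ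
    · refine ⟨∅, ?_, by simp⟩
      intro a b hcp
      exact absurd hcp.1 hlt
  choose Dp hDp1 hDp2 using hpair
  refine ⟨(Q ×ˢ Q).biUnion Dp, ?_, ?_⟩
  · intro ρ0 h0 ρ1 h1 a b hcp
    rcases hDp1 (ρ0, ρ1) a b hcp with h | h
    · left
      exact mem_biUnion.mpr ⟨(ρ0, ρ1), mem_product.mpr ⟨h0, h1⟩, h⟩
    · right
      exact mem_biUnion.mpr ⟨(ρ0, ρ1), mem_product.mpr ⟨h0, h1⟩, h⟩
  · have h1 : ((Q ×ˢ Q).biUnion Dp).card ≤ ∑ p ∈ Q ×ˢ Q, (Dp p).card := card_biUnion_le
    have h2 : (∑ p ∈ Q ×ˢ Q, (Dp p).card) ^ 2 ≤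
        (Q ×ˢ Q).card * ∑ p ∈ Q ×ˢ Q, (Dp p).card ^ 2 := by
      have := sq_sum_le_card_mul_sum_sq (s := Q ×ˢ Q) (f := fun p => (Dp p).card)
      simpa using this
    have h3 : ∑ p ∈ Q ×ˢ Q, (Dp p).card ^ 2 ≤ ∑ p ∈ Q ×ˢ Q, 8 * (Npair A p.1 p.2 + 1) :=
      Finset.sum_le_sum (fun p _ => hDp2 p)
    have h4 : ∑ p ∈ Q ×ˢ Q, 8 * (Npair A p.1 p.2 + 1) = 8 * (X2 A Q + Q.card ^ 2) := by
      rw [← Finset.mul_sum, Finset.sum_add_distrib, Finset.sum_product]
      simp only [X2, Finset.sum_const, card_product, smul_eq_mul, mul_one]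
      ring
    have h5 : (Q ×ˢ Q).card = Q.card ^ 2 := by
      rw [card_product]; ring
    calc ((Q ×ˢ Q).biUnion Dp).card ^ 2
        ≤ (∑ p ∈ Q ×ˢ Q, (Dp p).card) ^ 2 := Nat.pow_le_pow_left h1 2
      _ ≤ (Q ×ˢ Q).card * ∑ p ∈ Q ×ˢ Q, (Dp p).card ^ 2 := h2
      _ ≤ Q.card ^ 2 * (8 * (X2 A Q + Q.card ^ 2)) := by
          rw [h5]
          exact Nat.mul_le_mul_left _ (h3.trans h4.le)
      _ = 8 * Q.card ^ 2 * (X2 A Q + Q.card ^ 2) := by ring

theorem exists_free_close (A : Fin n → Fin n → Bool) (Q : Finset (Fin n)) :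
    ∃ B : Fin n → Fin n → Bool, (∀ r r' a b, ¬ cp B r r' a b) ∧
      ∃ s d : ℕ,
        (univ.filter (fun p : Fin n × Fin n => A p.1 p.2 ≠ B p.1 p.2)).card ≤ s + n * d ∧
        s ^ 2 ≤ 8 * n * (X1 A Q + X3 A Q + n * X2 A Q + n) ∧
        d ^ 2 ≤ 8 * Q.card ^ 2 * (X2 A Q + Q.card ^ 2) := by
  classical
  choose τ hτ using row_round A Q
  obtain ⟨D, hD1, hD2⟩ := exists_cover A Q
  refine ⟨fun r c => if c ∈ D then true else decide (τ r ≤ rk A Q r c), ?_, ?_⟩
  · intro r r' a b hcp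
    obtain ⟨hr, hab, h1, h2, h3, h4⟩ := hcp
    have haD : a ∉ D := by
      intro h
      simp [h] at h3
    have hbD : b ∉ D := by
      intro h
      simp [h] at h2
    simp only [haD, hbD, if_false, decide_eq_true_eq, decide_eq_false_iff_not, not_le] at h1 h2 h3 h4
    refine no_copy_of_thresh A Q τ r r' a b hr.le hab ?_ h1 h2 h3 h4
    rintro ⟨ρ0, h0, ρ1, h1', hc⟩
    rcases hD1 ρ0 h0 ρ1 h1' a b hc with h | h
    · exact haD h
    · exact hbD h
  · refine ⟨∑ r, (univ.filter (fun c => A r c ≠ decide (τ r ≤ rk A Q r c))).card, D.card,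
      ?_, ?_, hD2⟩
    · have hsub : univ.filter (fun p : Fin n × Fin n =>
          A p.1 p.2 ≠ (if p.2 ∈ D then true else decide (τ p.1 ≤ rk A Q p.1 p.2))) ⊆
          univ.filter (fun p : Fin n × Fin n => A p.1 p.2 ≠ decide (τ p.1 ≤ rk A Q p.1 p.2)) ∪
          (univ : Finset (Fin n)) ×ˢ D := by
        intro p hp
        simp only [mem_filter, mem_univ, true_and, mem_union, mem_product] at hp ⊢
        by_cases hD : p.2 ∈ D
        · exact Or.inr hD
        · left
          rw [if_neg hD] at hp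
          exact hp
      refine le_trans (card_le_card hsub) (le_trans (card_union_le _ _) ?_)
      have hc1 : (univ.filter (fun p : Fin n × Fin n =>
          A p.1 p.2 ≠ decide (τ p.1 ≤ rk A Q p.1 p.2))).card =
          ∑ r, (univ.filter (fun c => A r c ≠ decide (τ r ≤ rk A Q r c))).card := by
        rw [Finset.card_filter, Fintype.sum_prod_type]
        apply Finset.sum_congr rfl
        intro r _
        rw [Finset.card_filter]
      have hc2 : ((univ : Finset (Fin n)) ×ˢ D).card = n * D.card := by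
        rw [card_product]; simp
      rw [hc1, hc2]
    · have h1 : (∑ r, (univ.filter (fun c => A r c ≠ decide (τ r ≤ rk A Q r c))).card) ^ 2 ≤
          n * ∑ r, ((univ.filter (fun c => A r c ≠ decide (τ r ≤ rk A Q r c))).card) ^ 2 := by
        have := sq_sum_le_card_mul_sum_sq (s := (univ : Finset (Fin n)))
          (f := fun r => (univ.filter (fun c => A r c ≠ decide (τ r ≤ rk A Q r c))).card)
        simpa using this
      have h2 : ∑ r, ((univ.filter (fun c => A r c ≠ decide (τ r ≤ rk A Q r c))).card) ^ 2 ≤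
          ∑ r, 8 * (viol A Q r + 1) := Finset.sum_le_sum (fun r _ => hτ r)
      have h3 : ∑ r : Fin n, 8 * (viol A Q r + 1) = 8 * (∑ r, viol A Q r + n) := by
        rw [← Finset.mul_sum, Finset.sum_add_distrib]
        simp
      have h4 := viol_sum_le A Q
      calc (∑ r, (univ.filter (fun c => A r c ≠ decide (τ r ≤ rk A Q r c))).card) ^ 2
          ≤ n * ∑ r, ((univ.filter (fun c => A r c ≠ decide (τ r ≤ rk A Q r c))).card) ^ 2 := h1
        _ ≤ n * (8 * (∑ r, viol A Q r + n)) := Nat.mul_le_mul_left _ (h2.trans h3.le)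
        _ ≤ n * (8 * (X1 A Q + X3 A Q + n * X2 A Q + n)) := by
            apply Nat.mul_le_mul_left
            apply Nat.mul_le_mul_left
            omega
        _ = 8 * n * (X1 A Q + X3 A Q + n * X2 A Q + n) := by ring

end Vale.Agent.Lib.P037
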