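import Mathlib
import Vale.Agent.Lib.P037.Round
import Vale.Agent.Lib.P037.Key
import Vale.Agent.Lib.P037.Count

namespace Vale.Agent.Lib.P037

open Finset

variable {n : ℕ}

theorem marg_one (q : ℕ) (i : Fin q) (g : Fin n → ℕ) :
    (∑ f : Fin q → Fin n, g (f i)) * n = n ^ q * ∑ x, g x := by
  have h1 : ∀ f : Fin q → Fin n, g (f i) = ∑ x, (if f i = x then 1 else 0) * g x := by
    intro f
    simp
  simp only [h1]
  rw [Finset.sum_comm, Finset.sum_mul, Finset.mul_sum]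
  apply Finset.sum_congr rfl
  intro x _
  rw [← Finset.sum_mul]
  have h2 := count_fun_one q n i x
  calc (∑ f : Fin q → Fin n, if f i = x then 1 else 0) * g x * n
      = ((∑ f : Fin q → Fin n, if f i = x then 1 else 0) * n) * g x := by ring
    _ = n ^ q * g x := by rw [h2]

theorem marg_two (q : ℕ) (i j : Fin q) (hij : i ≠ j) (G : Fin n → Fin n → ℕ) :
    (∑ f : Fin q → Fin n, G (f i) (f j)) * n ^ 2 = n ^ q * ∑ x, ∑ y, G x y := by
  have h1 : ∀ f : Fin q → Fin n, G (f i) (f j) =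
      ∑ x, ∑ y, (if (f i = x ∧ f j = y) then 1 else 0) * G x y := by
    intro f
    rw [Finset.sum_eq_single (f i)]
    · rw [Finset.sum_eq_single (f j)]
      · simp
      · intro y _ hy
        simp [Ne.symm hy]
      · simp
    · intro x _ hx
      apply Finset.sum_eq_zero
      intro y _
      simp [Ne.symm hx]
    · simp
  simp only [h1]
  rw [Finset.sum_comm, Finset.sum_mul, Finset.mul_sum]
  apply Finset.sum_congr rfl
  intro x _
  rw [Finset.sum_comm, Finset.sum_mul, Finset.mul_sum]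
  apply Finset.sum_congr rfl
  intro y _
  rw [← Finset.sum_mul]
  have h2 := count_fun_two q n i j hij x y
  calc (∑ f : Fin q → Fin n, if (f i = x ∧ f j = y) then 1 else 0) * G x y * n ^ 2
      = ((∑ f : Fin q → Fin n, if (f i = x ∧ f j = y) then 1 else 0) * n ^ 2) * G x y := by ring
    _ = n ^ q * G x y := by rw [h2]

theorem X1_image_le (A : Fin n → Fin n → Bool) (q : ℕ) (f : Fin q → Fin n) :
    X1 A (univ.image f) ≤ ∑ i, Nbot A (f i) :=
  Finset.sum_image_le_of_nonneg (fun _ _ => Nat.zero_le _)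

theorem X2_image_le (A : Fin n → Fin n → Bool) (q : ℕ) (f : Fin q → Fin n) :
    X2 A (univ.image f) ≤ ∑ i, ∑ j, Npair A (f i) (f j) := by
  unfold X2
  refine le_trans (Finset.sum_image_le_of_nonneg (fun _ _ => Nat.zero_le _)) ?_
  apply Finset.sum_le_sum
  intro i _
  exact Finset.sum_image_le_of_nonneg (fun _ _ => Nat.zero_le _)

theorem sum_Y1 (A : Fin n → Fin n → Bool) (q : ℕ) :
    (∑ f : Fin q → Fin n, ∑ i, Nbot A (f i)) * n = q * n ^ q * N2 A := by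
  rw [Finset.sum_comm, Finset.sum_mul]
  have h : ∀ i : Fin q, (∑ f : Fin q → Fin n, Nbot A (f i)) * n = n ^ q * N2 A := by
    intro i
    rw [marg_one, N2_eq_sum_Nbot]
  rw [Finset.sum_congr rfl (fun i _ => h i)]
  simp
  ring

theorem sum_Y2 (A : Fin n → Fin n → Bool) (q : ℕ) :
    (∑ f : Fin q → Fin n, ∑ i, ∑ j, Npair A (f i) (f j)) * n ^ 2 ≤ q ^ 2 * n ^ q * N2 A := by
  rw [Finset.sum_comm, Finset.sum_mul]
  have h : ∀ i j : Fin q, (∑ f : Fin q → Fin n, Npair A (f i) (f j)) * n ^ 2 ≤ n ^ q * N2 A := by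
    intro i j
    by_cases hij : i = j
    · subst hij
      simp [Npair_self]
    · rw [marg_two q i j hij, N2_eq_sum_Npair]
  calc ∑ i, (∑ f : Fin q → Fin n, ∑ j, Npair A (f i) (f j)) * n ^ 2
      = ∑ i, ∑ j, (∑ f : Fin q → Fin n, Npair A (f i) (f j)) * n ^ 2 := by
        apply Finset.sum_congr rfl
        intro i _
        rw [Finset.sum_comm, Finset.sum_mul]
    _ ≤ ∑ _i : Fin q, ∑ _j : Fin q, n ^ q * N2 A :=
        Finset.sum_le_sum (fun i _ => Finset.sum_le_sum (fun j _ => h i j))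
    _ = q ^ 2 * n ^ q * N2 A := by
        simp
        ring

theorem sum_Y3 (A : Fin n → Fin n → Bool) (q : ℕ) :
    (∑ f : Fin q → Fin n, X3 A (univ.image f)) * (q + 1) ≤ n ^ 2 * n ^ (q + 1) := by
  classical
  unfold X3
  have hswap : ∑ f : Fin q → Fin n, ∑ r : Fin n, ∑ x : Fin n, ∑ y : Fin n,
      (if (y < x ∧ A r y = false ∧ A r x = true ∧
        ∀ ρ ∈ univ.image f, r ≤ ρ → ¬ (A ρ y = false ∧ A ρ x = true)) then 1 else 0)
      = ∑ x : Fin n, ∑ y : Fin n, ∑ r : Fin n, ∑ f : Fin q → Fin n,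
      (if (y < x ∧ A r y = false ∧ A r x = true ∧
        ∀ ρ ∈ univ.image f, r ≤ ρ → ¬ (A ρ y = false ∧ A ρ x = true)) then 1 else 0) := by
    calc ∑ f : Fin q → Fin n, ∑ r : Fin n, ∑ x : Fin n, ∑ y : Fin n,
      (if (y < x ∧ A r y = false ∧ A r x = true ∧
        ∀ ρ ∈ univ.image f, r ≤ ρ → ¬ (A ρ y = false ∧ A ρ x = true)) then 1 else 0)
        = ∑ r : Fin n, ∑ f : Fin q → Fin n, ∑ x : Fin n, ∑ y : Fin n,
      (if (y < x ∧ A r y = false ∧ A r x = true ∧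
        ∀ ρ ∈ univ.image f, r ≤ ρ → ¬ (A ρ y = false ∧ A ρ x = true)) then 1 else 0) :=
          Finset.sum_comm
      _ = ∑ r : Fin n, ∑ x : Fin n, ∑ f : Fin q → Fin n, ∑ y : Fin n,
      (if (y < x ∧ A r y = false ∧ A r x = true ∧
        ∀ ρ ∈ univ.image f, r ≤ ρ → ¬ (A ρ y = false ∧ A ρ x = true)) then 1 else 0) :=
          Finset.sum_congr rfl (fun r _ => Finset.sum_comm)
      _ = ∑ x : Fin n, ∑ r : Fin n, ∑ f : Fin q → Fin n, ∑ y : Fin n,
      (if (y < x ∧ A r y = false ∧ A r x = true ∧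
        ∀ ρ ∈ univ.image f, r ≤ ρ → ¬ (A ρ y = false ∧ A ρ x = true)) then 1 else 0) :=
          Finset.sum_comm
      _ = ∑ x : Fin n, ∑ r : Fin n, ∑ y : Fin n, ∑ f : Fin q → Fin n,
      (if (y < x ∧ A r y = false ∧ A r x = true ∧
        ∀ ρ ∈ univ.image f, r ≤ ρ → ¬ (A ρ y = false ∧ A ρ x = true)) then 1 else 0) :=
          Finset.sum_congr rfl (fun x _ => Finset.sum_congr rfl (fun r _ => Finset.sum_comm))
      _ = ∑ x : Fin n, ∑ y : Fin n, ∑ r : Fin n, ∑ f : Fin q → Fin n,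
      (if (y < x ∧ A r y = false ∧ A r x = true ∧
        ∀ ρ ∈ univ.image f, r ≤ ρ → ¬ (A ρ y = false ∧ A ρ x = true)) then 1 else 0) :=
          Finset.sum_congr rfl (fun x _ => Finset.sum_comm)
  rw [hswap]
  have hfix : ∀ x y : Fin n, ∑ r : Fin n, ∑ f : Fin q → Fin n,
      (if (y < x ∧ A r y = false ∧ A r x = true ∧
        ∀ ρ ∈ univ.image f, r ≤ ρ → ¬ (A ρ y = false ∧ A ρ x = true)) then 1 else 0)
      ≤ ∑ t ∈ range n, t ^ q := by
    intro x y
    set P : Finset (Fin n) := univ.filter (fun ρ => A ρ y = false ∧ A ρ x = true) with hP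
    have hr : ∀ r : Fin n, ∑ f : Fin q → Fin n,
        (if (y < x ∧ A r y = false ∧ A r x = true ∧
          ∀ ρ ∈ univ.image f, r ≤ ρ → ¬ (A ρ y = false ∧ A ρ x = true)) then 1 else 0)
        ≤ if r ∈ P then (n - (P.filter (fun ρ => r ≤ ρ)).card) ^ q else 0 := by
      intro r
      by_cases hrP : r ∈ P
      · rw [if_pos hrP, ← count_fun_avoid q n (P.filter (fun ρ => r ≤ ρ))]
        apply Finset.sum_le_sum
        intro f _
        by_cases hc : (y < x ∧ A r y = false ∧ A r x = true ∧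
          ∀ ρ ∈ univ.image f, r ≤ ρ → ¬ (A ρ y = false ∧ A ρ x = true))
        · rw [if_pos hc, if_pos]
          intro k hk
          simp only [hP, mem_filter, mem_univ, true_and] at hk
          exact hc.2.2.2 (f k) (mem_image_of_mem f (mem_univ k)) hk.2 hk.1
        · rw [if_neg hc]
          exact Nat.zero_le _
      · rw [if_neg hrP]
        apply le_of_eq
        apply Finset.sum_eq_zero
        intro f _
        rw [if_neg]
        intro hc
        apply hrP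
        simp only [hP, mem_filter, mem_univ, true_and]
        exact ⟨hc.2.1, hc.2.2.1⟩
    refine le_trans (Finset.sum_le_sum (fun r _ => hr r)) ?_
    rw [← Finset.sum_filter]
    have hfilt : univ.filter (fun r => r ∈ P) = P := by
      ext r; simp
    rw [hfilt]
    exact tail_sum_le q P
  have htot : ∑ x : Fin n, ∑ y : Fin n, ∑ r : Fin n, ∑ f : Fin q → Fin n,
      (if (y < x ∧ A r y = false ∧ A r x = true ∧
        ∀ ρ ∈ univ.image f, r ≤ ρ → ¬ (A ρ y = false ∧ A ρ x = true)) then 1 else 0)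
      ≤ n ^ 2 * ∑ t ∈ range n, t ^ q := by
    refine le_trans (Finset.sum_le_sum (fun x _ => Finset.sum_le_sum (fun y _ => hfix x y))) ?_
    simp
    apply le_of_eq
    ring
  calc (∑ x : Fin n, ∑ y : Fin n, ∑ r : Fin n, ∑ f : Fin q → Fin n,
      (if (y < x ∧ A r y = false ∧ A r x = true ∧
        ∀ ρ ∈ univ.image f, r ≤ ρ → ¬ (A ρ y = false ∧ A ρ x = true)) then 1 else 0)) * (q + 1)
      ≤ (n ^ 2 * ∑ t ∈ range n, t ^ q) * (q + 1) := Nat.mul_le_mul_right _ htot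
    _ = n ^ 2 * ((q + 1) * ∑ t ∈ range n, t ^ q) := by ring
    _ ≤ n ^ 2 * n ^ (q + 1) := Nat.mul_le_mul_left _ (pow_sum_le q n)

theorem exists_sample (A : Fin n → Fin n → Bool) (q : ℕ) (hq : 0 < q) (hn : 0 < n)
    (hN : 0 < N2 A) :
    ∃ Q : Finset (Fin n), Q.card ≤ q ∧ X1 A Q * n ≤ 3 * q * N2 A ∧
      X2 A Q * n ^ 2 ≤ 3 * q ^ 2 * N2 A ∧ X3 A Q * (q + 1) ≤ 3 * n ^ 3 := by
  classical
  have : Nonempty (Fin n) := ⟨⟨0, hn⟩⟩
  have hsum : ∑ f : Fin q → Fin n,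
      ((∑ i, Nbot A (f i)) * n * (q * n ^ 3) +
        (∑ i, ∑ j, Npair A (f i) (f j)) * n ^ 2 * n ^ 3 +
        X3 A (univ.image f) * (q + 1) * (q ^ 2 * N2 A))
      ≤ ∑ _f : Fin q → Fin n, 3 * q ^ 2 * N2 A * n ^ 3 := by
    have e0 : ∑ _f : Fin q → Fin n, 3 * q ^ 2 * N2 A * n ^ 3
        = 3 * (q ^ 2 * n ^ q * N2 A * n ^ 3) := by
      simp
      ring
    rw [e0]
    simp only [Finset.sum_add_distrib, ← Finset.sum_mul]
    rw [sum_Y1]
    have h2 := sum_Y2 A q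
    have h3 := sum_Y3 A q
    have t2 : (∑ f : Fin q → Fin n, ∑ i, ∑ j, Npair A (f i) (f j)) * n ^ 2 * n ^ 3
        ≤ q ^ 2 * n ^ q * N2 A * n ^ 3 := Nat.mul_le_mul_right _ h2
    have t3 : (∑ f : Fin q → Fin n, X3 A (univ.image f)) * (q + 1) * (q ^ 2 * N2 A)
        ≤ n ^ 2 * n ^ (q + 1) * (q ^ 2 * N2 A) := Nat.mul_le_mul_right _ h3
    have e3 : n ^ 2 * n ^ (q + 1) * (q ^ 2 * N2 A) = q ^ 2 * n ^ q * N2 A * n ^ 3 := by ring
    have e1 : q * n ^ q * N2 A * (q * n ^ 3) = q ^ 2 * n ^ q * N2 A * n ^ 3 := by ring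
    rw [e1]
    rw [e3] at t3
    omega
  obtain ⟨f, _, hf⟩ := Finset.exists_le_of_sum_le Finset.univ_nonempty hsum
  have hqn : 0 < q * n ^ 3 := Nat.mul_pos hq (pow_pos hn 3)
  have hn3 : 0 < n ^ 3 := pow_pos hn 3
  have hqN : 0 < q ^ 2 * N2 A := Nat.mul_pos (pow_pos hq 2) hN
  refine ⟨univ.image f, ?_, ?_, ?_, ?_⟩
  · exact le_trans card_image_le (by simp)
  · have h1 : (∑ i, Nbot A (f i)) * n * (q * n ^ 3) ≤ 3 * q * N2 A * (q * n ^ 3) := by
      have e : 3 * q * N2 A * (q * n ^ 3) = 3 * q ^ 2 * N2 A * n ^ 3 := by ring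
      rw [e]
      omega
    have h2 := Nat.le_of_mul_le_mul_right h1 hqn
    exact le_trans (Nat.mul_le_mul_right _ (X1_image_le A q f)) h2
  · have h1 : (∑ i, ∑ j, Npair A (f i) (f j)) * n ^ 2 * n ^ 3 ≤ 3 * q ^ 2 * N2 A * n ^ 3 := by
      omega
    have h2 := Nat.le_of_mul_le_mul_right h1 hn3
    exact le_trans (Nat.mul_le_mul_right _ (X2_image_le A q f)) h2
  · have h1 : X3 A (univ.image f) * (q + 1) * (q ^ 2 * N2 A) ≤ 3 * n ^ 3 * (q ^ 2 * N2 A) := by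
      have e : 3 * n ^ 3 * (q ^ 2 * N2 A) = 3 * q ^ 2 * N2 A * n ^ 3 := by ring
      rw [e]
      omega
    exact Nat.le_of_mul_le_mul_right h1 hqN

/-- Core combinatorial statement: a pattern-free matrix close to `A`, with explicit error terms. -/
theorem core (A : Fin n → Fin n → Bool) (q : ℕ) (hq : 0 < q) (hn : 0 < n) (hN : 0 < N2 A) :
    ∃ B : Fin n → Fin n → Bool, (∀ r r' a b, ¬ cp B r r' a b) ∧
      ∃ s d x1 x2 x3 : ℕ,
        (univ.filter (fun p : Fin n × Fin n => A p.1 p.2 ≠ B p.1 p.2)).card ≤ s + n * d ∧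
        s ^ 2 ≤ 8 * n * (x1 + x3 + n * x2 + n) ∧
        d ^ 2 ≤ 8 * q ^ 2 * (x2 + q ^ 2) ∧
        x1 * n ≤ 3 * q * N2 A ∧ x2 * n ^ 2 ≤ 3 * q ^ 2 * N2 A ∧ x3 * (q + 1) ≤ 3 * n ^ 3 := by
  obtain ⟨Q, hQ, h1, h2, h3⟩ := exists_sample A q hq hn hN
  obtain ⟨B, hB, s, d, hdiff, hs, hd⟩ := exists_free_close A Q
  refine ⟨B, hB, s, d, X1 A Q, X2 A Q, X3 A Q, hdiff, hs, ?_, h1, h2, h3⟩
  have hQ2 : Q.card ^ 2 ≤ q ^ 2 := Nat.pow_le_pow_left hQ 2
  calc d ^ 2 ≤ 8 * Q.card ^ 2 * (X2 A Q + Q.card ^ 2) := hd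
    _ ≤ 8 * q ^ 2 * (X2 A Q + q ^ 2) := by
        apply Nat.mul_le_mul
        · exact Nat.mul_le_mul_left _ hQ2
        · omega

end Vale.Agent.Lib.P037
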